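import Vale.Agent.P161.Main

open MeasureTheory Vale.Agent.P161

universe u

theorem Vale.Agent.Results.P161.Subcritical.result :
    ∀ (d : ℕ), 3 ≤ d → ∀ (V : Type u) (G : SimpleGraph V), G.IsTree →
      (∀ v, (G.neighborSet v).ncard = d) → ∀ β : ℝ, 0 ≤ β →
      ((d : ℝ) - 1) * Real.tanh β ^ 2 < 1 →
      ∃ Φ : (V → unitInterval) → (V → Bool), Measurable Φ ∧
        (∀ (g : G ≃g G) (U : V → unitInterval),
          Φ (fun v => U (g.symm v)) = fun v => Φ U (g.symm v)) ∧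
        IsFreeIsing G (Real.tanh β) ((iid V).map Φ) := by
  intro d hd V G hT hN β hβ h
  refine main ⟨hT, hd, hN⟩ ?_ h
  rw [Real.tanh_eq_sinh_div_cosh]
  exact div_nonneg (Real.sinh_nonneg_iff.2 hβ) (Real.cosh_pos β).le
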